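import Crest.Agent.Helper75.OT.Defs
import Crest.Agent.Helper59.OT.Rho
import Crest.Agent.Helper82.SD.Uniform

/-!
# Row 82 (S0109), WP-LM: the Laguerre map (measurable argmax selection)

Statements `exists_lagMap`, `discMeas_singleton`, `lagMap_push` verbatim from
`Crest.Agent.Helper75.OT.Spec` (same names, namespace `Crest.Agent.Helper75.OT`).

* `exists_lagMap`: induction on the finite set of atoms; at each step the new atom wins on the
  closed set where it dominates all the previous ones.  The fibres of the selection agree with the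
  Laguerre cells up to `Kᶜ` and finitely many hyperplanes, both null for the source measure.
* `discMeas_singleton`: evaluation of a finite sum of Dirac masses on a singleton.
* `lagMap_push`: the push-forward is determined by the masses of the finitely many fibres.

Auxiliary lemmas live in `Crest.Agent.Helper4.OT`.
-/

set_option autoImplicit false

noncomputable section

open MeasureTheory Filter Topology
open scoped ENNReal NNReal RealInnerProductSpace

namespace Crest.Agent.Helper4.OT

open Crest.AnalysisR.OT Crest.Agent.Helper75.OT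

variable {d : ℕ}

/-- Measurable selection of a maximiser of `c ↦ ⟪x, c⟫ - w c` over a nonempty finite set. -/
theorem exists_argmax_sel (S : Finset (E d)) (hS : S.Nonempty) (w : E d → ℝ) :
    ∃ L : E d → E d, Measurable L ∧ (∀ x, L x ∈ S) ∧
      (∀ x, ∀ c' ∈ S, ⟪x, c'⟫ - w c' ≤ ⟪x, L x⟫ - w (L x)) := by
  induction hS using Finset.Nonempty.cons_induction with
  | singleton a =>
    refine ⟨fun _ => a, measurable_const, fun x => Finset.mem_singleton_self a, ?_⟩
    intro x c' hc'
    rw [Finset.mem_singleton] at hc'
    rw [hc']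
  | cons a s h hs ih =>
    obtain ⟨L', hL'm, hL'S, hL'max⟩ := ih
    classical
    let A : Set (E d) := {x | ∀ c ∈ s, ⟪x, c⟫ - w c ≤ ⟪x, a⟫ - w a}
    have hA : MeasurableSet A := by
      have hAeq : A = ⋂ c ∈ s, {x : E d | ⟪x, c⟫ - w c ≤ ⟪x, a⟫ - w a} := by
        ext x
        simp only [A, Set.mem_ofPred_eq, Set.mem_iInter]
      rw [hAeq]
      refine Finset.measurableSet_biInter s (fun c _ => ?_)
      exact (isClosed_le (by fun_prop) (by fun_prop)).measurableSet
    refine ⟨fun x => if x ∈ A then a else L' x, Measurable.ite hA measurable_const hL'm, ?_, ?_⟩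
    · intro x
      by_cases hx : x ∈ A
      · simp only [hx, if_true]
        exact Finset.mem_cons_self a s
      · simp only [hx, if_false]
        exact Finset.mem_cons.mpr (Or.inr (hL'S x))
    · intro x c' hc'
      rw [Finset.mem_cons] at hc'
      by_cases hx : x ∈ A
      · simp only [hx, if_true]
        rcases hc' with rfl | hc'
        · exact le_rfl
        · exact hx c' hc'
      · simp only [hx, if_false]
        rcases hc' with rfl | hc'
        · have hx' : ¬ ∀ c ∈ s, ⟪x, c⟫ - w c ≤ ⟪x, c'⟫ - w c' := hx
          push Not at hx'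
          obtain ⟨c, hc, hlt⟩ := hx'
          exact hlt.le.trans (hL'max x c hc)
        · exact hL'max x c' hc'

/-- The fibres of an argmax selection have the mass of the Laguerre cells. -/
theorem measure_preimage_eq_Lag {K : Set (E d)} (hK : Body K) (S : Finset (E d)) (w : E d → ℝ)
    (L : E d → E d) (hLS : ∀ x, L x ∈ S)
    (hLmax : ∀ x, ∀ c' ∈ S, ⟪x, c'⟫ - w c' ≤ ⟪x, L x⟫ - w (L x)) (c : E d) (hc : c ∈ S) :
    (uniformProbOn K) (L ⁻¹' {c}) = (uniformProbOn K) (Lag K S w c) := by
  classical
  apply le_antisymm
  · calc (uniformProbOn K) (L ⁻¹' {c}) ≤ (uniformProbOn K) (Lag K S w c ∪ Kᶜ) := by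
          apply measure_mono
          intro x hx
          rw [Set.mem_preimage, Set.mem_singleton_iff] at hx
          by_cases hxK : x ∈ K
          · left
            refine ⟨hxK, fun c' hc' => ?_⟩
            have h1 := hLmax x c' hc'
            rwa [hx] at h1
          · right
            exact hxK
      _ ≤ (uniformProbOn K) (Lag K S w c) + (uniformProbOn K) Kᶜ := measure_union_le _ _
      _ = (uniformProbOn K) (Lag K S w c) := by rw [rho_compl hK, add_zero]
  · have hnull : (uniformProbOn K)
        (⋃ c' ∈ S.erase c, {x : E d | ⟪x, c - c'⟫ = w c - w c'}) = 0 := by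
      refine (measure_biUnion_null_iff (S.erase c).countable_toSet).2 (fun c' hc' => ?_)
      have hne : c - c' ≠ 0 := sub_ne_zero.mpr (Ne.symm (Finset.mem_erase.mp hc').1)
      exact Crest.Agent.Helper82.SD.uniformProbOn_hyperplane K (c - c') hne (w c - w c')
    calc (uniformProbOn K) (Lag K S w c)
        ≤ (uniformProbOn K)
            (L ⁻¹' {c} ∪ ⋃ c' ∈ S.erase c, {x : E d | ⟪x, c - c'⟫ = w c - w c'}) := by
          apply measure_mono
          intro x hx
          by_cases hLx : L x = c
          · left
            exact hLx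
          · right
            rw [Set.mem_iUnion₂]
            refine ⟨L x, Finset.mem_erase.mpr ⟨hLx, hLS x⟩, ?_⟩
            have h1 := hx.2 (L x) (hLS x)
            have h2 := hLmax x c hc
            show ⟪x, c - L x⟫ = w c - w (L x)
            rw [inner_sub_right]
            linarith
      _ ≤ (uniformProbOn K) (L ⁻¹' {c})
            + (uniformProbOn K) (⋃ c' ∈ S.erase c, {x : E d | ⟪x, c - c'⟫ = w c - w c'}) :=
          measure_union_le _ _
      _ = (uniformProbOn K) (L ⁻¹' {c}) := by rw [hnull, add_zero]

end Crest.Agent.Helper4.OT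

namespace Crest.Agent.Helper75.OT

open Crest.AnalysisR.OT

variable {d : ℕ}

/-- A measurable selection of the active atom. -/
theorem exists_lagMap {K : Set (E d)} (hK : Body K) (S : Finset (E d)) (hS : S.Nonempty)
    (w : E d → ℝ) :
    ∃ L : E d → E d, Measurable L ∧ (∀ x, L x ∈ S) ∧
      (∀ x, ∀ c' ∈ S, ⟪x, c'⟫ - w c' ≤ ⟪x, L x⟫ - w (L x)) ∧
      ∀ c ∈ S, (uniformProbOn K) (L ⁻¹' {c}) = (uniformProbOn K) (Lag K S w c) := by
  obtain ⟨L, hLm, hLS, hLmax⟩ := Crest.Agent.Helper4.OT.exists_argmax_sel S hS w
  exact ⟨L, hLm, hLS, hLmax, fun c hc =>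
    Crest.Agent.Helper4.OT.measure_preimage_eq_Lag hK S w L hLS hLmax c hc⟩

/-- Point masses of a labelled discrete measure. -/
theorem discMeas_singleton {ι : Type} [Fintype ι] (y : ι → E d) (m : ι → ℝ) (hm : ∀ i, 0 ≤ m i)
    (c : E d) : discMeas y m {c} = ENNReal.ofReal (mergedMass y m c) := by
  classical
  unfold discMeas mergedMass
  rw [Measure.coe_finsetSum, Finset.sum_apply, ENNReal.ofReal_sum_of_nonneg]
  · refine Finset.sum_congr rfl (fun i _ => ?_)
    rw [Measure.smul_apply, Measure.dirac_apply' _ (measurableSet_singleton c), smul_eq_mul]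
    by_cases h : y i = c
    · simp [h]
    · simp [h]
  · intro i _
    split_ifs
    · exact hm i
    · exact le_rfl

/-- The Laguerre map of valid weights pushes the source onto the labelled discrete measure. -/
theorem lagMap_push {K : Set (E d)} (hK : Body K) {ι : Type} [Fintype ι] (y : ι → E d)
    (m : ι → ℝ) (hm : ∀ i, 0 < m i) (hsum : ∑ i, m i = 1) (w : E d → ℝ)
    (hw : IsLagWeights K (supp y) (mergedMass y m) w) (L : E d → E d) (hLm : Measurable L)
    (hLS : ∀ x, L x ∈ supp y)
    (hLc : ∀ c ∈ supp y, (uniformProbOn K) (L ⁻¹' {c}) = (uniformProbOn K) (Lag K (supp y) w c)) :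
    (uniformProbOn K).map L = discMeas y m := by
  classical
  have := rho_prob hK
  have hfib : ∀ c ∈ supp y, (uniformProbOn K) (L ⁻¹' {c}) = discMeas y m {c} := by
    intro c hc
    rw [hLc c hc, discMeas_singleton y m (fun i => (hm i).le) c, ← hw c hc]
    unfold gM
    rw [ENNReal.ofReal_toReal (measure_ne_top _ _)]
  ext B hB
  rw [Measure.map_apply hLm hB]
  have hpre : L ⁻¹' B = ⋃ c ∈ (supp y).filter (fun c => c ∈ B), L ⁻¹' {c} := by
    ext x
    simp only [Set.mem_preimage, Set.mem_iUnion, Finset.mem_filter, Set.mem_singleton_iff,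
      exists_prop]
    constructor
    · intro hx
      exact ⟨L x, ⟨hLS x, hx⟩, rfl⟩
    · rintro ⟨c, ⟨_, hcB⟩, hxc⟩
      rw [hxc]
      exact hcB
  rw [hpre, measure_biUnion_finset]
  rotate_left
  · intro c _ c' _ hne
    refine Set.disjoint_left.mpr (fun x hx hx' => hne ?_)
    rw [Set.mem_preimage, Set.mem_singleton_iff] at hx hx'
    rw [← hx, ← hx']
  · intro c _
    exact hLm (measurableSet_singleton c)
  rw [Finset.sum_congr rfl (fun c hc => hfib c (Finset.mem_filter.mp hc).1)]
  unfold discMeas
  simp only [Measure.coe_finsetSum, Finset.sum_apply, Measure.smul_apply, smul_eq_mul]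
  rw [Finset.sum_comm]
  refine Finset.sum_congr rfl (fun i _ => ?_)
  rw [← Finset.mul_sum]
  congr 1
  simp only [Measure.dirac_apply' _ (measurableSet_singleton _), Measure.dirac_apply' _ hB]
  by_cases hyB : y i ∈ B
  · rw [Set.indicator_of_mem hyB, Finset.sum_eq_single (y i)]
    · simp
    · intro c _ hne
      simp [hne.symm]
    · intro hnot
      exact absurd (Finset.mem_filter.mpr
        ⟨(Finset.mem_image_of_mem y (Finset.mem_univ i) : y i ∈ supp y), hyB⟩) hnot
  · rw [Set.indicator_of_notMem hyB]
    apply Finset.sum_eq_zero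
    intro c hc
    have hne : y i ≠ c := fun h => hyB (h ▸ (Finset.mem_filter.mp hc).2)
    simp [hne]

end Crest.Agent.Helper75.OT
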